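import Vale.Agent.P369.Calc

namespace Vale.Agent.Results.P369.ApproxFromEPI

open Vale.Agent.P369

/-- Let `SA, SB, SC` be the entropies of `n`-mode states and `NA, NB, NC ≥ 0` their entropy photon
numbers, `g N = S / n`.  If the entropies satisfy the quantum entropy power inequality
`exp (SC / n) ≥ η exp (SA / n) + (1 - η) exp (SB / n)`, then the entropy photon-number inequality
holds up to the additive constant `1/2 - 1/e`. -/
theorem result : ∀ (n : ℕ) (η SA SB SC NA NB NC : ℝ), 1 ≤ n → 0 ≤ η → η ≤ 1 →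
    0 ≤ NA → 0 ≤ NB → 0 ≤ NC → g NA = SA / n → g NB = SB / n → g NC = SC / n →
    η * Real.exp (SA / n) + (1 - η) * Real.exp (SB / n) ≤ Real.exp (SC / n) →
    η * NA + (1 - η) * NB - (1 / 2 - Real.exp (-1)) ≤ NC := by
  intro n η SA SB SC NA NB NC _ h0 h1 hA hB hC eA eB eC hepi
  rw [← eA, ← eB, ← eC] at hepi
  exact approx_epni η NA NB NC h0 h1 hA hB hC hepi

end Vale.Agent.Results.P369.ApproxFromEPI
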